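import Vale.Agent.P246.R2.H429.Defs3

/-! # P246: rows E and X (the Euler characteristic of a finite complex over an integral group
ring is well defined) -/

namespace Vale.Agent.P246.H665

open Vale.Agent.P246 Vale.Agent.P246.H429 CategoryTheory

/-- the augmentation -/
noncomputable def aug (G : Type) [Group G] : ZG G →+* ℤ :=
  (MonoidAlgebra.lift ℤ ℤ G (1 : G →* ℤ)).toRingHom

theorem nontrivial_ZG (G : Type) [Group G] : Nontrivial (ZG G) :=
  (aug G).domain_nontrivial

/-- integral group rings satisfy the rank condition -/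
theorem rankCondition_ZG (G : Type) [Group G] : RankCondition (ZG G) := by
  rw [rankCondition_iff_matrix]
  intro n m f g h
  have h1 : (g.map (aug G)) * (f.map (aug G)) = 1 := by
    rw [← Matrix.map_mul, h, Matrix.map_one _ (map_zero _) (map_one _)]
  exact (rankCondition_iff_matrix (R := ℤ)).mp inferInstance n m _ _ h1

/-- ROW X -/
theorem rowX : SpecX := by
  intro G _ M _ _ a b ⟨e⟩
  have := rankCondition_ZG G
  let p : (Fin b → ZG G) →ₗ[ZG G] (Fin a → ZG G) :=
    LinearMap.snd (ZG G) M (Fin a → ZG G) ∘ₗ e.symm.toLinearMap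
  refine le_of_fin_surjective (ZG G) p ?_
  intro y
  exact ⟨e (0, y), by simp [p]⟩

/-- ROW E -/
theorem rowE : SpecE := by
  intro G _ C hC
  have hrc := rankCondition_ZG G
  have hnt := nontrivial_ZG G
  -- the ranks
  have hex : ∀ i, ∃ k : ℕ, Nonempty (C.X i ≃ₗ[ZG G] (Fin k → ZG G)) := by
    intro i
    have h1 : Module.Free (ZG G) (C.X i) := (hC.free i).1
    have h2 : Module.Finite (ZG G) (C.X i) := (hC.free i).2
    let b := Module.Free.chooseBasis (ZG G) (C.X i)
    exact ⟨Fintype.card (Module.Free.ChooseBasisIndex (ZG G) (C.X i)),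
      ⟨(b.reindex (Fintype.equivFin _)).equivFun⟩⟩
  choose c hc using hex
  obtain ⟨N, hN⟩ := hC.bounded
  have hcN : ∀ i, N + 1 ≤ i → c i = 0 := by
    intro i hi
    have hs : Subsingleton (C.X i) := hN i (by omega)
    obtain ⟨e⟩ := hc i
    by_contra hne
    have h4 : Subsingleton (Fin (c i) → ZG G) := e.symm.injective.subsingleton
    have h5 := congrFun (Subsingleton.elim (fun _ => (0 : ZG G)) (fun _ : Fin (c i) => (1 : ZG G)))
      ⟨0, Nat.pos_of_ne_zero hne⟩
    exact zero_ne_one h5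
  refine ⟨∑ i ∈ Finset.range (N + 1), (-1 : ℤ) ^ i * c i, ⟨c, N + 1, hc, hcN, rfl⟩, ?_⟩
  rintro n' ⟨c', N', hc', hcN', rfl⟩
  have hcc : ∀ i, c' i = c i := by
    intro i
    obtain ⟨e⟩ := hc i
    obtain ⟨e'⟩ := hc' i
    exact eq_of_fin_equiv (ZG G) (e'.symm.trans e)
  have h1 : ∑ i ∈ Finset.range N', (-1 : ℤ) ^ i * c' i =
      ∑ i ∈ Finset.range (max N' (N + 1)), (-1 : ℤ) ^ i * c' i := by
    refine Finset.sum_subset (Finset.range_mono (le_max_left _ _)) ?_
    intro i _ hi
    rw [hcN' i (by simpa using hi)]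
    simp
  have h2 : ∑ i ∈ Finset.range (N + 1), (-1 : ℤ) ^ i * c i =
      ∑ i ∈ Finset.range (max N' (N + 1)), (-1 : ℤ) ^ i * c i := by
    refine Finset.sum_subset (Finset.range_mono (le_max_right _ _)) ?_
    intro i _ hi
    rw [hcN i (by simpa using hi)]
    simp
  rw [h1, h2]
  refine Finset.sum_congr rfl ?_
  intro i _
  rw [hcc i]

end Vale.Agent.P246.H665
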